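import Mathlib

set_option autoImplicit false
set_option linter.all false

/-!
P333, ratio 2: cutting a circular word (step 3 (iii) of the proof).
-/

namespace Vale.Agent.P333.H120

/-- `s` occurs in the two-sided infinite word `W` at the position `t`. -/
def OccZ (W : ℤ → ℕ) (s : List ℕ) (t : ℤ) : Prop :=
  ∀ i (hi : i < s.length), W (t + (i : ℤ)) = s[i]

/-- `N` is a period of `W`. -/
def PerZ (W : ℤ → ℕ) (N : ℕ) : Prop := ∀ t, W (t + (N : ℤ)) = W t

/-- `N` is the least period of `W`. -/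
structure PrimZ (W : ℤ → ℕ) (N : ℕ) : Prop where
  pos : 0 < N
  per : PerZ W N
  min : ∀ q : ℕ, 0 < q → q < N → ¬ PerZ W q

theorem PerZ.mul {W : ℤ → ℕ} {N : ℕ} (h : PerZ W N) (k : ℤ) (t : ℤ) : W (t + k * N) = W t := by
  have hp : ∀ (k : ℕ) (t : ℤ), W (t + k * N) = W t := by
    intro k
    induction k with
    | zero => intro t; simp
    | succ k ih =>
      intro t
      have : t + ((k + 1 : ℕ) : ℤ) * N = (t + k * N) + N := by push_cast; ring
      rw [this, h, ih]
  rcases Int.eq_nat_or_neg k with ⟨n, rfl | rfl⟩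
  · exact hp n t
  · have := hp n (t + -(n : ℤ) * N)
    rw [← this]
    congr 1
    ring

theorem OccZ.shift {W : ℤ → ℕ} {N : ℕ} (h : PerZ W N) {s : List ℕ} {t : ℤ} (ho : OccZ W s t)
    (k : ℤ) : OccZ W s (t + k * N) := by
  intro i hi
  have : t + k * N + (i : ℤ) = (t + i) + k * N := by ring
  rw [this, h.mul]
  exact ho i hi

/-- `p` is the start of a least rotation of `V`. -/
def LeastAt (V : ℤ → ℤ) (p : ℤ) : Prop :=
  ∀ q : ℤ, ∀ d : ℕ, (∀ j : ℕ, j < d → V (q + (j : ℤ)) = V (p + (j : ℤ))) →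
    ¬ V (q + (d : ℤ)) < V (p + (d : ℤ))

/-- integer version of the periods -/
def PerI (V : ℤ → ℤ) (N : ℕ) : Prop := ∀ t, V (t + (N : ℤ)) = V t

theorem PerI.mul {V : ℤ → ℤ} {N : ℕ} (h : PerI V N) (k : ℤ) (t : ℤ) : V (t + k * N) = V t := by
  have hp : ∀ (k : ℕ) (t : ℤ), V (t + k * N) = V t := by
    intro k
    induction k with
    | zero => intro t; simp
    | succ k ih =>
      intro t
      have : t + ((k + 1 : ℕ) : ℤ) * N = (t + k * N) + N := by push_cast; ring
      rw [this, h, ih]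
  rcases Int.eq_nat_or_neg k with ⟨n, rfl | rfl⟩
  · exact hp n t
  · have := hp n (t + -(n : ℤ) * N)
    rw [← this]
    congr 1
    ring

theorem LeastAt.shift {V : ℤ → ℤ} {N : ℕ} (h : PerI V N) {p : ℤ} (hp : LeastAt V p) (k : ℤ) :
    LeastAt V (p + k * N) := by
  intro q d hj hlt
  refine hp q d (fun j hjd => ?_) ?_
  · rw [hj j hjd]
    have : p + k * N + (j : ℤ) = (p + j) + k * N := by ring
    rw [this, h.mul]
  · have : p + k * N + (d : ℤ) = (p + d) + k * N := by ring
    rw [this, h.mul] at hlt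
    exact hlt

theorem exists_leastAt (V : ℤ → ℤ) (N : ℕ) (hN : 0 < N) (h : PerI V N) : ∃ p, LeastAt V p := by
  classical
  -- the minimum in the lexicographic order of the windows of length N
  let f : ℕ → Lex (Fin N → ℤ) := fun p => toLex (fun j : Fin N => V ((p : ℤ) + (j : ℕ)))
  obtain ⟨p, hp, hmin⟩ := Finset.exists_min_image (Finset.range N) f ⟨0, by simpa using hN⟩
  refine ⟨p, ?_⟩
  intro q d hj hlt
  -- reduce q modulo N
  obtain ⟨q', k, hq', hq⟩ : ∃ (q' : ℕ) (k : ℤ), q' < N ∧ q = q' + k * N := by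
    refine ⟨(q % N).toNat, q / N, ?_, ?_⟩
    · have h1 := Int.emod_lt_of_pos q (show (0 : ℤ) < N by exact_mod_cast hN)
      have h2 := Int.emod_nonneg q (show (N : ℤ) ≠ 0 by exact_mod_cast hN.ne')
      omega
    · have h2 := Int.emod_nonneg q (show (N : ℤ) ≠ 0 by exact_mod_cast hN.ne')
      rw [Int.toNat_of_nonneg h2]
      have := Int.emod_add_mul_ediv q N
      linarith [mul_comm (N : ℤ) (q / N)]
  subst hq
  have e : ∀ j : ℤ, V ((q' : ℤ) + k * N + j) = V ((q' : ℤ) + j) := by
    intro j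
    have : (q' : ℤ) + k * N + j = (q' + j) + k * N := by ring
    rw [this, h.mul]
  have hj' : ∀ j : ℕ, j < d → V ((q' : ℤ) + j) = V ((p : ℤ) + j) := by
    intro j hjd
    rw [← e, hj j hjd]
  have hlt' : V ((q' : ℤ) + d) < V ((p : ℤ) + d) := by
    rw [← e]; exact hlt
  rcases lt_or_ge d N with hdN | hdN
  · have h1 := hmin q' (by simpa using hq')
    have h2 : f q' < f p := by
      refine ⟨⟨d, hdN⟩, ?_, ?_⟩
      · intro j hjd
        exact hj' j hjd
      · exact hlt'
    exact absurd h2 (not_lt.mpr h1)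
  · -- all letters agree
    have h3 : V ((q' : ℤ) + d) = V ((p : ℤ) + d) := by
      have h4 := hj' (d % N) (lt_of_lt_of_le (Nat.mod_lt _ hN) hdN)
      have h5 : ((d : ℕ) : ℤ) = ((d % N : ℕ) : ℤ) + ((d / N : ℕ) : ℤ) * N := by
        have := Nat.mod_add_div d N
        have h6 : ((d % N + N * (d / N) : ℕ) : ℤ) = (d : ℤ) := by exact_mod_cast this
        push_cast at h6 ⊢
        linarith [mul_comm (N : ℤ) ((d : ℤ) / N)]
      rw [h5]
      rw [show (q' : ℤ) + (((d % N : ℕ) : ℤ) + ((d / N : ℕ) : ℤ) * N) =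
        ((q' : ℤ) + ((d % N : ℕ) : ℤ)) + ((d / N : ℕ) : ℤ) * N by ring, h.mul]
      rw [show (p : ℤ) + (((d % N : ℕ) : ℤ) + ((d / N : ℕ) : ℤ) * N) =
        ((p : ℤ) + ((d % N : ℕ) : ℤ)) + ((d / N : ℕ) : ℤ) * N by ring, h.mul]
      exact h4
    exact absurd hlt' (by rw [h3]; exact lt_irrefl _)

/-- A least rotation of a primitive word is unbordered. -/
theorem unbordered {V : ℤ → ℤ} {N : ℕ} (h : PerI V N) (hmin : ∀ q : ℕ, 0 < q → q < N → ¬ PerI V q)
    {p : ℤ} (hp : LeastAt V p) (l : ℕ) (h0 : 0 < l) (hl : l < N)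
    (hb : ∀ j : ℕ, j < l → V (p - l + (j : ℤ)) = V (p + (j : ℤ))) : False := by
  by_cases hd : ∃ d : ℕ, V (p - l + (d : ℤ)) ≠ V (p + (d : ℤ))
  · classical
    let d := Nat.find hd
    have hdne : V (p - l + (d : ℤ)) ≠ V (p + (d : ℤ)) := Nat.find_spec hd
    have hdm : ∀ j : ℕ, j < d → V (p - l + (j : ℤ)) = V (p + (j : ℤ)) := by
      intro j hj
      by_contra hne
      exact Nat.find_min hd hj hne
    have hld : l ≤ d := by
      by_contra hlt
      exact hdne (hb d (by omega))
    have h1 := hp (p - l) d hdm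
    have h2 : V (p + (d : ℤ)) < V (p - l + (d : ℤ)) := by
      rcases lt_trichotomy (V (p - l + (d : ℤ))) (V (p + (d : ℤ))) with h3 | h3 | h3
      · exact absurd h3 h1
      · exact absurd h3 hdne
      · exact h3
    refine hp (p + l) (d - l) ?_ ?_
    · intro j hj
      have h4 := hdm (j + l) (by omega)
      push_cast at h4
      rw [show p - (l : ℤ) + ((j : ℤ) + l) = p + j by ring] at h4
      rw [h4]
      congr 1
      ring
    · have e1 : p + (l : ℤ) + ((d - l : ℕ) : ℤ) = p + d := by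
        push_cast [Nat.cast_sub hld]; ring
      have e2 : p + ((d - l : ℕ) : ℤ) = p - l + d := by
        push_cast [Nat.cast_sub hld]; ring
      rw [e1, e2]
      exact h2
  · push Not at hd
    refine hmin l h0 hl ?_
    intro t
    -- choose a large multiple of N
    obtain ⟨k, hk⟩ : ∃ k : ℤ, 0 ≤ t + l - p + k * N := by
      refine ⟨|t + l - p|, ?_⟩
      have h1 := neg_abs_le (t + l - p)
      have h2 : |t + l - p| * 1 ≤ |t + l - p| * N := by
        apply mul_le_mul_of_nonneg_left _ (abs_nonneg _)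
        have : 0 < N := by omega
        exact_mod_cast this
      linarith
    obtain ⟨j, hj⟩ := Int.eq_ofNat_of_zero_le hk
    have h4 := hd j
    have e1 : p - (l : ℤ) + (j : ℤ) = t + k * N := by rw [← hj]; ring
    have e2 : p + (j : ℤ) = (t + l) + k * N := by rw [← hj]; ring
    rw [e1, e2, h.mul, h.mul] at h4
    exact h4.symm

/-- Two occurrences at different residues: one of them is inside of the window. -/
theorem occ_inside {W : ℤ → ℕ} {N : ℕ} (hW : PrimZ W N) {V : ℤ → ℤ}
    (hWV : ∀ a b, W a = W b ↔ V a = V b)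
    {p : ℤ} (hp : LeastAt V p) {s : List ℕ} {t1 t2 : ℤ} (h1 : OccZ W s t1) (h2 : OccZ W s t2)
    (h12 : ¬ (N : ℤ) ∣ t2 - t1) : ∃ t, OccZ W s t ∧ p ≤ t ∧ t + s.length ≤ p + N := by
  have hN : (0 : ℤ) < N := by exact_mod_cast hW.pos
  have hV : PerI V N := fun t => (hWV _ _).1 (hW.per t)
  have hVm : ∀ q : ℕ, 0 < q → q < N → ¬ PerI V q := by
    intro q hq0 hqN hq
    exact hW.min q hq0 hqN fun t => (hWV _ _).2 (hq t)
  -- representatives in [p, p + N)
  have red : ∀ t, OccZ W s t → ∃ t' k : ℤ, t' = t + k * N ∧ OccZ W s t' ∧ p ≤ t' ∧ t' < p + N := by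
    intro t ht
    refine ⟨t + (-((t - p) / N)) * N, _, rfl, ht.shift hW.per _, ?_, ?_⟩
    · have := Int.emod_nonneg (t - p) hN.ne'
      have h3 := Int.emod_add_mul_ediv (t - p) N
      nlinarith [mul_comm (N : ℤ) ((t - p) / N)]
    · have := Int.emod_lt_of_pos (t - p) hN
      have h3 := Int.emod_add_mul_ediv (t - p) N
      nlinarith [mul_comm (N : ℤ) ((t - p) / N)]
  obtain ⟨a, k1, ha, oa, a1, a2⟩ := red t1 h1
  obtain ⟨b, k2, hb, ob, b1, b2⟩ := red t2 h2
  have hab : a ≠ b := by
    intro hab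
    apply h12
    refine ⟨k1 - k2, ?_⟩
    rw [ha, hb] at hab
    linarith [mul_comm (N : ℤ) (k1 - k2), sub_mul k1 k2 (N : ℤ)]
  by_contra hno
  push Not at hno
  have ea := hno a oa a1
  have eb := hno b ob b1
  -- wlog
  have key : ∀ a b : ℤ, OccZ W s a → OccZ W s b → p ≤ a → b < p + N → a < b →
      p + N < a + s.length → p + N < b + s.length → False := by
    intro a b oa ob a1 b2 hab ea eb
    obtain ⟨l, hl⟩ := Int.eq_ofNat_of_zero_le (show 0 ≤ b - a by omega)
    refine unbordered hV hVm (LeastAt.shift hV hp 1) l (by omega) (by omega) ?_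
    intro j hj
    rw [← hWV]
    -- position of the letters in the two occurrences
    obtain ⟨c, hc⟩ := Int.eq_ofNat_of_zero_le (show 0 ≤ p + N - b + j by omega)
    have hcs : c < s.length := by omega
    have o1 := oa c hcs
    have o2 := ob c hcs
    rw [show p + 1 * (N : ℤ) - (l : ℤ) + (j : ℤ) = a + (c : ℤ) by omega,
      show p + 1 * (N : ℤ) + (j : ℤ) = b + (c : ℤ) by omega, o1, o2]
  rcases lt_or_gt_of_ne hab with h | h
  · exact key a b oa ob a1 b2 h ea eb
  · exact key b a ob oa b1 a2 h eb ea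

/-- The end of the run with the period `w` which contains `[x, y)`. -/
theorem run_end {W : ℤ → ℕ} {N : ℕ} (hW : PrimZ W N) {w : ℕ} (hw0 : 0 < w) (hwN : w < N)
    {x y : ℤ} (hrun : ∀ t, x ≤ t → t + w < y → W t = W (t + w)) :
    ∃ Q, y ≤ Q ∧ W (Q - w) ≠ W Q ∧ ∀ t, x ≤ t → t + w < Q → W t = W (t + w) := by
  classical
  have hex : ∃ d : ℕ, W (y + d - w) ≠ W (y + d) := by
    by_contra hno
    push Not at hno
    refine hW.min w hw0 hwN ?_
    intro t
    obtain ⟨k, hk⟩ : ∃ k : ℤ, 0 ≤ t + w - y + k * N := by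
      refine ⟨|t + w - y|, ?_⟩
      have h1 := neg_abs_le (t + w - y)
      have h2 : |t + w - y| * 1 ≤ |t + w - y| * N := by
        apply mul_le_mul_of_nonneg_left _ (abs_nonneg _)
        have : 0 < N := by omega
        exact_mod_cast this
      linarith
    obtain ⟨j, hj⟩ := Int.eq_ofNat_of_zero_le hk
    have h4 := hno j
    have e1 : y + (j : ℤ) - (w : ℤ) = t + k * N := by rw [← hj]; ring
    have e2 : y + (j : ℤ) = (t + w) + k * N := by rw [← hj]; ring
    rw [e1, e2, hW.per.mul, hW.per.mul] at h4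
    exact h4.symm
  let d := Nat.find hex
  have hd : W (y + d - w) ≠ W (y + d) := Nat.find_spec hex
  refine ⟨y + d, by omega, hd, ?_⟩
  intro t ht1 ht2
  rcases lt_or_ge (t + w) y with h | h
  · exact hrun t ht1 h
  · obtain ⟨j, hj⟩ := Int.eq_ofNat_of_zero_le (show 0 ≤ t + w - y by omega)
    have h5 : j < d := by omega
    have h6 : W (y + j - w) = W (y + j) := by
      by_contra hne
      exact Nat.find_min hex h5 hne
    rw [show t = y + (j : ℤ) - w by omega]
    rw [show y + (j : ℤ) - w + w = y + j by ring]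
    exact h6

/-- One order: the window `[p - λ, p + N + μ)`. -/
theorem cut_one {ι : Type*} [Fintype ι] {W : ℤ → ℕ} {N : ℕ} (hW : PrimZ W N)
    (w δ δ' : ι → ℕ) (x y Q : ι → ℤ)
    (hw : ∀ i, 0 < w i ∧ w i < N) (hδ : ∀ i, δ i ≤ w i) (hδ' : ∀ i, δ' i ≤ w i)
    (hyQ : ∀ i, y i ≤ Q i)
    (hrun : ∀ i t, x i ≤ t → t + w i < Q i → W t = W (t + w i))
    {V : ℤ → ℤ} (hWV : ∀ a b, W a = W b ↔ V a = V b)
    (hQ : ∀ i, V (Q i - w i) ≠ V (Q i))
    {p : ℤ} (hp : LeastAt V p) (s : List ℕ)
    (hs : (∃ t1 t2, OccZ W s t1 ∧ OccZ W s t2 ∧ ¬ (N : ℤ) ∣ t2 - t1) ∨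
      ∃ i t, OccZ W s t ∧ x i + δ i ≤ t ∧ t + s.length ≤ y i - δ' i) :
    ∃ t, OccZ W s t ∧
      p - ((∑ i, if V (Q i - w i) < V (Q i) then w i - δ i else 0 : ℕ) : ℤ) ≤ t ∧
      t + s.length ≤ p + N +
        ((∑ i, if V (Q i - w i) < V (Q i) then 0 else w i - δ' i : ℕ) : ℤ) := by
  classical
  have hN : (0 : ℤ) < N := by exact_mod_cast hW.pos
  have hV : PerI V N := fun t => (hWV _ _).1 (hW.per t)
  rcases hs with ⟨t1, t2, h1, h2, h12⟩ | ⟨i, t, ht, hxt, hty⟩
  · obtain ⟨t, ht, a, b⟩ := occ_inside hW hWV hp h1 h2 h12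
    exact ⟨t, ht, by omega, by omega⟩
  · set lam : ℕ := ∑ i, if V (Q i - w i) < V (Q i) then w i - δ i else 0 with hlam
    set mu : ℕ := ∑ i, if V (Q i - w i) < V (Q i) then 0 else w i - δ' i with hmu
    -- shift to [p, p + N)
    set k : ℤ := -((t - p) / N) with hk
    have hk1 : p ≤ t + k * N := by
      have := Int.emod_nonneg (t - p) hN.ne'
      have h3 := Int.emod_add_mul_ediv (t - p) N
      rw [hk]
      nlinarith [mul_comm (N : ℤ) ((t - p) / N)]
    have hk2 : t + k * N < p + N := by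
      have := Int.emod_lt_of_pos (t - p) hN
      have h3 := Int.emod_add_mul_ediv (t - p) N
      rw [hk]
      nlinarith [mul_comm (N : ℤ) ((t - p) / N)]
    set t' := t + k * N with ht'
    have ho' : OccZ W s t' := ht.shift hW.per k
    by_cases hin : t' + s.length ≤ p + N
    · exact ⟨t', ho', by omega, by omega⟩
    · -- the cut `p + N` is inside of the occurrence
      obtain ⟨hw0, hwN⟩ := hw i
      have hwN' : (w i : ℤ) < N := by exact_mod_cast hwN
      have hd1 := hδ i
      have hd2 := hδ' i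
      have hQi := hyQ i
      -- the run, shifted
      have hrun' : ∀ u, x i + k * N ≤ u → u + w i < Q i + k * N → V u = V (u + w i) := by
        intro u hu1 hu2
        rw [← hWV]
        have h5 := hrun i (u - k * N) (by omega) (by omega)
        have h6 := hW.per.mul k (u - k * N)
        have h7 := hW.per.mul k (u - k * N + w i)
        rw [show u - k * N + k * N = u by ring] at h6
        rw [show u - k * N + w i + k * N = u + w i by ring] at h7
        rw [h6, h7]
        exact h5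
      have hQk : V (Q i + k * N) = V (Q i) := hV.mul k _
      have hQk' : V (Q i + k * N - w i) = V (Q i - w i) := by
        have := hV.mul k (Q i - w i)
        rw [← this]
        congr 1
        ring
      by_cases hty2 : V (Q i - w i) < V (Q i)
      · -- left type
        have nop : ∀ m : ℤ, ¬ (x i + k * N + w i ≤ p + m * N ∧ p + m * N ≤ Q i + k * N) := by
          rintro m ⟨g1, g2⟩
          obtain ⟨d, hd⟩ := Int.eq_ofNat_of_zero_le
            (show 0 ≤ Q i + k * N - (p + m * N) by omega)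
          refine LeastAt.shift hV hp m (p + m * N - w i) d ?_ ?_
          · intro j hj
            have h8 := hrun' (p + m * N - w i + j) (by omega) (by omega)
            rw [h8]
            congr 1
            ring
          · rw [show p + m * N - (w i : ℤ) + (d : ℤ) = Q i + k * N - w i by omega,
              show p + m * N + (d : ℤ) = Q i + k * N by omega, hQk, hQk']
            exact hty2
        have n1 := nop 1
        have n2 := nop 2
        have hle : w i - δ i ≤ lam := by
          have h9 := Finset.single_le_sum (f := fun i => if V (Q i - w i) < V (Q i) then w i - δ i else 0)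
            (s := Finset.univ) (fun _ _ => Nat.zero_le _) (Finset.mem_univ i)
          simp only [hty2, if_true] at h9
          exact h9
        refine ⟨t' + (-1) * N, ho'.shift hW.per _, ?_, ?_⟩
        · have : ((w i - δ i : ℕ) : ℤ) ≤ (lam : ℤ) := by exact_mod_cast hle
          rw [Nat.cast_sub hd1] at this
          omega
        · omega
      · -- right type
        have hty3 : V (Q i) < V (Q i - w i) := lt_of_le_of_ne (not_lt.mp hty2) (Ne.symm (hQ i))
        have nop : ∀ m : ℤ, ¬ (x i + k * N ≤ p + m * N ∧ p + m * N ≤ Q i + k * N - w i) := by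
          rintro m ⟨g1, g2⟩
          obtain ⟨d, hd⟩ := Int.eq_ofNat_of_zero_le
            (show 0 ≤ Q i + k * N - w i - (p + m * N) by omega)
          refine LeastAt.shift hV hp m (p + m * N + w i) d ?_ ?_
          · intro j hj
            have h8 := hrun' (p + m * N + j) (by omega) (by omega)
            rw [h8]
            congr 1
            ring
          · rw [show p + m * N + (w i : ℤ) + (d : ℤ) = Q i + k * N by omega,
              show p + m * N + (d : ℤ) = Q i + k * N - w i by omega, hQk, hQk']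
            exact hty3
        have n1 := nop 1
        have n2 := nop 0
        have hle : w i - δ' i ≤ mu := by
          have h9 := Finset.single_le_sum (f := fun i => if V (Q i - w i) < V (Q i) then 0 else w i - δ' i)
            (s := Finset.univ) (fun _ _ => Nat.zero_le _) (Finset.mem_univ i)
          simp only [hty2, if_false] at h9
          exact h9
        have h10 : ((w i - δ' i : ℕ) : ℤ) ≤ (mu : ℤ) := by exact_mod_cast hle
        rw [Nat.cast_sub hd2] at h10
        refine ⟨t', ho', ?_, ?_⟩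
        · omega
        · omega

/-- **Cutting a primitive circular word.** The word `W` has the least period `N`. For `i : ι` the
word has the period `w i < N` on `[x i, y i)`. Every string of `K` occurs at two positions which are
different modulo `N`, or in `[x i + δ i, y i - δ' i)` for some `i`. Then a window of length
`N + ∑ ((w - δ) + (w - δ')) / 2` contains all strings of `K`. -/
theorem cut_exists {ι : Type*} [Fintype ι] {W : ℤ → ℕ} {N : ℕ} (hW : PrimZ W N)
    (w δ δ' : ι → ℕ) (x y : ι → ℤ)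
    (hw : ∀ i, 0 < w i ∧ w i < N) (hδ : ∀ i, δ i ≤ w i) (hδ' : ∀ i, δ' i ≤ w i)
    (hrun : ∀ i t, x i ≤ t → t + w i < y i → W t = W (t + w i))
    (K : Set (List ℕ))
    (hK : ∀ s ∈ K, (∃ t1 t2, OccZ W s t1 ∧ OccZ W s t2 ∧ ¬ (N : ℤ) ∣ t2 - t1) ∨
      ∃ i t, OccZ W s t ∧ x i + δ i ≤ t ∧ t + s.length ≤ y i - δ' i) :
    ∃ (P : ℤ) (M : ℕ), 2 * M ≤ 2 * N + ∑ i, ((w i - δ i) + (w i - δ' i)) ∧
      ∀ s ∈ K, ∃ t, OccZ W s t ∧ P ≤ t ∧ t + s.length ≤ P + M := by
  classical
  choose Q hyQ hQne hQrun using fun i => run_end hW (hw i).1 (hw i).2 (hrun i)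
  -- the two orders
  have hWV1 : ∀ a b, W a = W b ↔ ((W a : ℤ)) = (W b : ℤ) := by
    intro a b; exact_mod_cast Iff.rfl
  have hWV2 : ∀ a b, W a = W b ↔ (-(W a : ℤ)) = -(W b : ℤ) := by
    intro a b; rw [neg_inj]; exact_mod_cast Iff.rfl
  obtain ⟨p1, hp1⟩ := exists_leastAt (fun t => (W t : ℤ)) N hW.pos
    (fun t => (hWV1 _ _).1 (hW.per t))
  obtain ⟨p2, hp2⟩ := exists_leastAt (fun t => -(W t : ℤ)) N hW.pos
    (fun t => (hWV2 _ _).1 (hW.per t))
  have c1 := fun s (hs : s ∈ K) => cut_one hW w δ δ' x y Q hw hδ hδ' hyQ hQrun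
    (V := fun t => (W t : ℤ)) hWV1 (fun i => fun h => hQne i ((hWV1 _ _).2 h)) hp1 s (hK s hs)
  have c2 := fun s (hs : s ∈ K) => cut_one hW w δ δ' x y Q hw hδ hδ' hyQ hQrun
    (V := fun t => -(W t : ℤ)) hWV2 (fun i => fun h => hQne i ((hWV2 _ _).2 h)) hp2 s (hK s hs)
  set l1 : ℕ := ∑ i, if (fun t => (W t : ℤ)) (Q i - w i) < (fun t => (W t : ℤ)) (Q i)
    then w i - δ i else 0 with hl1
  set m1 : ℕ := ∑ i, if (fun t => (W t : ℤ)) (Q i - w i) < (fun t => (W t : ℤ)) (Q i)
    then 0 else w i - δ' i with hm1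
  set l2 : ℕ := ∑ i, if (fun t => -(W t : ℤ)) (Q i - w i) < (fun t => -(W t : ℤ)) (Q i)
    then w i - δ i else 0 with hl2
  set m2 : ℕ := ∑ i, if (fun t => -(W t : ℤ)) (Q i - w i) < (fun t => -(W t : ℤ)) (Q i)
    then 0 else w i - δ' i with hm2
  have hsum : l1 + m1 + (l2 + m2) = ∑ i, ((w i - δ i) + (w i - δ' i)) := by
    rw [hl1, hm1, hl2, hm2, ← Finset.sum_add_distrib, ← Finset.sum_add_distrib,
      ← Finset.sum_add_distrib]
    refine Finset.sum_congr rfl fun i _ => ?_
    have hne := hQne i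
    rcases lt_or_gt_of_ne hne with h | h
    · have h1 : (W (Q i - w i) : ℤ) < (W (Q i) : ℤ) := by exact_mod_cast h
      have h2 : ¬ (-(W (Q i - w i) : ℤ) < -(W (Q i) : ℤ)) := by omega
      simp only [h1, h2, if_true, if_false]
      omega
    · have h1 : ¬ ((W (Q i - w i) : ℤ) < (W (Q i) : ℤ)) := by
        have : (W (Q i) : ℤ) < (W (Q i - w i) : ℤ) := by exact_mod_cast h
        omega
      have h2 : (-(W (Q i - w i) : ℤ) < -(W (Q i) : ℤ)) := by
        have : (W (Q i) : ℤ) < (W (Q i - w i) : ℤ) := by exact_mod_cast h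
        omega
      simp only [h1, h2, if_true, if_false]
      omega
  rcases le_total (l1 + m1) (l2 + m2) with h | h
  · refine ⟨p1 - l1, N + l1 + m1, by omega, fun s hs => ?_⟩
    obtain ⟨t, a, b, c⟩ := c1 s hs
    exact ⟨t, a, b, by push_cast; omega⟩
  · refine ⟨p2 - l2, N + l2 + m2, by omega, fun s hs => ?_⟩
    obtain ⟨t, a, b, c⟩ := c2 s hs
    exact ⟨t, a, b, by push_cast; omega⟩

end Vale.Agent.P333.H120
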