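import Mathlib
import Vale.Agent.P333.Bdl.B1
import Vale.Agent.P333.H120.Cut

set_option autoImplicit false
set_option linter.all false

/-!
P333, ratio 2: closed walks of strings (repeated strings allowed), their words, traversals.
-/

namespace Vale.Agent.P333.H120

open Vale.Agent.P333 Vale.Agent.P333.U

/-! ### `linW` and `mergeL` of concatenations -/

theorem linW_app : ∀ (A B : List (List ℕ)), A ≠ [] → B ≠ [] →
    linW (A ++ B) = linW A + ((A.getLastD []).length - ov (A.getLastD []) (B.headD [])) +
      linW B := by
  intro A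
  induction A with
  | nil => intro B h _; exact absurd rfl h
  | cons x A ih =>
    intro B _ hB
    cases A with
    | nil =>
      cases B with
      | nil => exact absurd rfl hB
      | cons y B => simp [linW]
    | cons y A =>
      have h := ih B (by simp) hB
      have h2 : (x :: y :: A).getLastD [] = (y :: A).getLastD [] := by simp [List.getLastD]
      rw [h2]
      simp only [List.cons_append, linW] at h ⊢
      omega

theorem last_app {δ : Type*} (d : δ) (A B : List δ) (hB : B ≠ []) :
    (A ++ B).getLastD d = B.getLastD d := by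
  rw [List.getLastD_eq_getLast?, List.getLastD_eq_getLast?,
    List.getLast?_append_of_ne_nil A hB]

theorem head_app {δ : Type*} (d : δ) (A B : List δ) (hA : A ≠ []) :
    (A ++ B).headD d = A.headD d := by
  cases A with
  | nil => exact absurd rfl hA
  | cons x A => rfl

theorem linW_snoc' (A : List (List ℕ)) (hA : A ≠ []) (y : List ℕ) :
    linW (A ++ [y]) = linW A + ((A.getLastD []).length - ov (A.getLastD []) y) := by
  rw [linW_app A [y] hA (by simp)]
  simp [linW]

/-- The merge of a concatenation. -/
theorem mergeL_app : ∀ (A B : List (List ℕ)), A ≠ [] → B ≠ [] →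
    mergeL (A ++ B) = (mergeL A).take (linW (A ++ [B.headD []])) ++ mergeL B := by
  intro A
  induction A with
  | nil => intro B h _; exact absurd rfl h
  | cons x A ih =>
    intro B _ hB
    cases A with
    | nil =>
      cases B with
      | nil => exact absurd rfl hB
      | cons y B =>
        simp [linW, mergeL]
    | cons y A =>
      have h := ih B (by simp) hB
      have e1 : mergeL (x :: y :: A ++ B) = x.take (x.length - ov x y) ++ mergeL (y :: A ++ B) := rfl
      have e2 : mergeL (x :: y :: A) = x.take (x.length - ov x y) ++ mergeL (y :: A) := rfl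
      have e3 : linW (x :: y :: A ++ [B.headD []]) =
          (x.length - ov x y) + linW (y :: A ++ [B.headD []]) := rfl
      rw [e1, e2, e3, h]
      have hl : (x.take (x.length - ov x y)).length = x.length - ov x y := by
        rw [List.length_take]; omega
      rw [List.take_append, hl,
        List.take_of_length_le (l := x.take (x.length - ov x y)) (by omega),
        Nat.add_sub_cancel_left, List.append_assoc]

/-- The merge of an initial segment. -/
theorem mergeL_prefix_app : ∀ (A B : List (List ℕ)), A ≠ [] → mergeL A <+: mergeL (A ++ B) := by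
  intro A
  induction A with
  | nil => intro B h; exact absurd rfl h
  | cons x A ih =>
    intro B _
    cases A with
    | nil => simpa [mergeL] using head_prefix_mergeL x B
    | cons y A =>
      have h := ih B (by simp)
      have e1 : mergeL (x :: y :: A ++ B) = x.take (x.length - ov x y) ++ mergeL (y :: A ++ B) := rfl
      have e2 : mergeL (x :: y :: A) = x.take (x.length - ov x y) ++ mergeL (y :: A) := rfl
      rw [e1, e2]
      exact (List.prefix_append_right_inj _).2 h

theorem linW_le_length (A : List (List ℕ)) (y : List ℕ) (hA : A ≠ []) :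
    linW (A ++ [y]) ≤ (mergeL A).length := by
  rw [linW_snoc' A hA, length_mergeL]
  omega

theorem mergeL_block (A B C : List (List ℕ)) (hB : B ≠ []) :
    mergeL B <+: (mergeL (A ++ B ++ C)).drop (linW (A ++ [B.headD []])) := by
  rcases eq_or_ne A [] with rfl | hA
  · have : linW ([] ++ [B.headD []]) = 0 := by simp [linW]
    rw [this, List.drop_zero, List.nil_append]
    exact mergeL_prefix_app B C hB
  · have hBC : B ++ C ≠ [] := by simp [hB]
    have h1 := mergeL_app A (B ++ C) hA hBC
    have h2 : (B ++ C).headD [] = B.headD [] := head_app [] B C hB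
    rw [List.append_assoc, h1, h2, List.drop_append_of_le_length, List.drop_of_length_le]
    · simpa using mergeL_prefix_app B C hB
    · rw [List.length_take]; omega
    · rw [List.length_take]
      have := linW_le_length A (B.headD []) hA
      omega

theorem occAt_of_drop {c : List (List ℕ)} (hw : 0 < cycW c) {t : List ℕ} {a : ℕ}
    (h : t <+: (mergeL c).drop a) : OccAt (cycWord c) t a := by
  intro i hi
  obtain ⟨v, hv⟩ := h
  have hlen : a + i < (mergeL c).length := by
    have := congrArg List.length hv
    simp only [List.length_append, List.length_drop] at this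
    omega
  rw [← getD_mergeL_eq c hw _ hlen, List.getD_eq_getElem _ _ hlen]
  have h2 : i < ((mergeL c).drop a).length := by rw [List.length_drop]; omega
  have h3 : ((mergeL c).drop a)[i] = (mergeL c)[a + i] := by rw [List.getElem_drop]
  rw [← h3]
  have h4 : ((mergeL c).drop a)[i] = (t ++ v)[i]'(by rw [hv]; exact h2) := by
    simp only [hv]
  rw [h4, List.getElem_append_left hi]

/-! ### Starts of the visits -/

/-- The start of the visit `i`. -/
def st (c : List (List ℕ)) (i : ℕ) : ℕ := linW (c.take (i + 1))

theorem st_zero (c : List (List ℕ)) : st c 0 = 0 := by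
  cases c with
  | nil => simp [st, linW]
  | cons x r => simp [st, linW]

theorem st_app (A B : List (List ℕ)) (hB : B ≠ []) :
    st (A ++ B) A.length = linW (A ++ [B.headD []]) := by
  unfold st
  congr 1
  obtain ⟨b, B, rfl⟩ := List.exists_cons_of_ne_nil hB
  rw [List.take_append, List.take_of_length_le (by omega)]
  simp

theorem take_succ_eq (c : List (List ℕ)) {i : ℕ} (hi : i < c.length) :
    c.take (i + 1) = c.take i ++ [c.getD i []] := by
  rw [List.take_succ_eq_append_getElem hi, List.getD_eq_getElem _ _ hi]

theorem st_succ {c : List (List ℕ)} {i : ℕ} (hi : i + 1 < c.length) :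
    st c (i + 1) = st c i + ((c.getD i []).length - ov (c.getD i []) (c.getD (i + 1) [])) := by
  unfold st
  rw [take_succ_eq c hi, linW_snoc' _ (by
    intro h
    have := congrArg List.length h
    rw [List.length_take, List.length_nil] at this
    omega)]
  congr 2
  · rw [take_succ_eq c (by omega), last_app _ _ _ (by simp)]
    simp
  · rw [take_succ_eq c (by omega), last_app _ _ _ (by simp)]
    simp

theorem getD_mem {c : List (List ℕ)} {i : ℕ} (hi : i < c.length) : c.getD i [] ∈ c := by
  rw [List.getD_eq_getElem _ _ hi]
  exact List.getElem_mem hi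

theorem st_lt_succ {c : List (List ℕ)} (hne : ∀ s ∈ c, s ≠ []) {i : ℕ} (hi : i + 1 < c.length) :
    st c i < st c (i + 1) := by
  rw [st_succ hi]
  have := ov_lt_left (c.getD (i + 1) []) (hne _ (getD_mem (c := c) (i := i) (by omega)))
  omega

theorem st_lt {c : List (List ℕ)} (hne : ∀ s ∈ c, s ≠ []) {i j : ℕ} (hij : i < j)
    (hj : j < c.length) : st c i < st c j := by
  induction j with
  | zero => omega
  | succ j ih =>
    rcases Nat.lt_succ_iff_lt_or_eq.1 hij with h | h
    · exact (ih h (by omega)).trans (st_lt_succ hne hj)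
    · subst h
      exact st_lt_succ hne hj

theorem st_le {c : List (List ℕ)} (hne : ∀ s ∈ c, s ≠ []) {i j : ℕ} (hij : i ≤ j)
    (hj : j < c.length) : st c i ≤ st c j := by
  rcases Nat.lt_or_eq_of_le hij with h | h
  · exact (st_lt hne h hj).le
  · rw [h]

theorem st_last (c : List (List ℕ)) : st c (c.length - 1) = linW c := by
  unfold st
  rw [List.take_of_length_le (by omega)]

theorem last_mem {c : List (List ℕ)} (hc : c ≠ []) : c.getLastD [] ∈ c := by
  rw [List.getLastD_eq_getLast?, List.getLast?_eq_some_getLast hc]
  exact List.getLast_mem hc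

theorem head_mem {c : List (List ℕ)} (hc : c ≠ []) : c.headD [] ∈ c := by
  obtain ⟨a, c, rfl⟩ := List.exists_cons_of_ne_nil hc
  simp

theorem st_lt_cycW {c : List (List ℕ)} (hne : ∀ s ∈ c, s ≠ []) {i : ℕ} (hi : i < c.length) :
    st c i < cycW c := by
  have h1 : st c i ≤ st c (c.length - 1) := st_le hne (by omega) (by omega)
  rw [st_last] at h1
  have hc : c ≠ [] := by
    rintro rfl
    simp at hi
  have h2 := ov_lt_left (c.headD []) (hne _ (last_mem hc))
  unfold cycW cycO
  omega

/-- Every block of a walk occurs at the start of its first visit. -/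
theorem occ_block {A B C : List (List ℕ)} (hB : B ≠ []) (hw : 0 < cycW (A ++ B ++ C)) :
    OccAt (cycWord (A ++ B ++ C)) (mergeL B) (st (A ++ B ++ C) A.length) := by
  have h1 := mergeL_block A B C hB
  have h2 : st (A ++ B ++ C) A.length = linW (A ++ [B.headD []]) := by
    rw [List.append_assoc, st_app A (B ++ C) (by simp [hB]), head_app [] B C hB]
  rw [h2]
  exact occAt_of_drop hw h1

theorem st_block {A B C : List (List ℕ)} {i : ℕ} (hi : i < B.length) :
    st (A ++ B ++ C) (A.length + i) = st (A ++ B ++ C) A.length + st B i := by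
  have hB : B ≠ [] := by
    rintro rfl
    simp at hi
  have h2 : st (A ++ B ++ C) A.length = linW (A ++ [B.headD []]) := by
    rw [List.append_assoc, st_app A (B ++ C) (by simp [hB]), head_app [] B C hB]
  rw [h2]
  unfold st
  have h3 : (A ++ B ++ C).take (A.length + i + 1) = A ++ B.take (i + 1) := by
    rw [List.append_assoc, List.take_append, List.take_of_length_le (by omega)]
    congr 1
    rw [List.take_append_of_le_length (by omega)]
    congr 1
    omega
  rw [h3]
  rcases eq_or_ne A [] with rfl | hA
  · simp [linW]
  · have hB' : B.take (i + 1) ≠ [] := by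
      intro h
      have := congrArg List.length h
      rw [List.length_take, List.length_nil] at this
      omega
    rw [linW_app A _ hA hB', linW_snoc' A hA]
    have : (B.take (i + 1)).headD [] = B.headD [] := by
      obtain ⟨b, B, rfl⟩ := List.exists_cons_of_ne_nil hB
      simp
    rw [this]

theorem occ_st {c : List (List ℕ)} (hne : ∀ s ∈ c, s ≠ []) {i : ℕ} (hi : i < c.length) :
    OccAt (cycWord c) (c.getD i []) (st c i) := by
  have hc : c ≠ [] := by
    rintro rfl
    simp at hi
  have h1 : c = c.take i ++ [c.getD i []] ++ c.drop (i + 1) := by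
    rw [← take_succ_eq c hi, List.take_append_drop]
  have h2 := occ_block (A := c.take i) (B := [c.getD i []]) (C := c.drop (i + 1)) (by simp)
    (by rw [← h1]; exact cycW_pos hc hne)
  rw [← h1] at h2
  have h3 : (c.take i).length = i := by
    rw [List.length_take]; omega
  rw [h3] at h2
  simpa [mergeL] using h2

/-! ### Weights -/

theorem cycW_eq {c : List (List ℕ)} (hc : c ≠ []) : cycW c = linW (c ++ [c.headD []]) := by
  rw [linW_snoc' c hc]
  rfl

theorem cycW_app_comm (A B : List (List ℕ)) : cycW (A ++ B) = cycW (B ++ A) := by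
  by_cases hA : A = []
  · simp [hA]
  by_cases hB : B = []
  · simp [hB]
  unfold cycW cycO
  rw [linW_app A B hA hB, linW_app B A hB hA, last_app _ A B hB,
    last_app _ B A hA, head_app _ A B hA, head_app _ B A hB]
  omega

theorem cycW_rot (c : List (List ℕ)) (n : ℕ) : cycW (c.rotate n) = cycW c := by
  rw [List.rotate_eq_drop_append_take_mod, cycW_app_comm, List.take_append_drop]

theorem cycW_splice {c c2 : List (List ℕ)} (hc : c ≠ []) (hc2 : c2 ≠ [])
    (hh : c.headD [] = c2.headD []) : cycW (c ++ c2) = cycW c + cycW c2 := by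
  unfold cycW cycO
  rw [linW_app c c2 hc hc2, last_app _ c c2 hc2, head_app _ c c2 hc, hh]
  omega

/-- Sum over the blocks, linear version. -/
theorem linW_flatten (y : List ℕ) : ∀ (B : List (List ℕ)) (Bs : List (List (List ℕ))),
    (∀ b ∈ B :: Bs, b ≠ []) →
    linW ((B :: Bs).flatten ++ [y]) +
      ((prsC [y] (B :: Bs)).map fun e => ov (e.1.getLastD []) (e.2.headD [])).sum =
      ((B :: Bs).map fun b => (mergeL b).length).sum := by
  intro B Bs
  induction Bs generalizing B with
  | nil =>
    intro h
    have hB : B ≠ [] := h B (by simp)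
    simp only [List.flatten_cons, List.flatten_nil, List.append_nil, prsC, List.map_cons,
      List.map_nil, List.sum_cons, List.sum_nil, Nat.add_zero]
    rw [linW_snoc' B hB, length_mergeL]
    have := ov_le_left (B.getLastD []) y
    simp only [List.headD_cons]
    omega
  | cons B2 Bs ih =>
    intro h
    have hB : B ≠ [] := h B (by simp)
    have hB2 : B2 ≠ [] := h B2 (by simp)
    have h1 := ih B2 (fun b hb => h b (List.mem_cons_of_mem _ hb))
    have e1 : (B :: B2 :: Bs).flatten ++ [y] = B ++ ((B2 :: Bs).flatten ++ [y]) := by simp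
    have e2 : ((B2 :: Bs).flatten ++ [y]) ≠ [] := by simp
    have e3 : ((B2 :: Bs).flatten ++ [y]).headD [] = B2.headD [] := by
      rw [List.flatten_cons, List.append_assoc, head_app _ _ _ hB2]
    rw [e1, linW_app B _ hB e2, e3]
    have e4 : prsC [y] (B :: B2 :: Bs) = (B, B2) :: prsC [y] (B2 :: Bs) := rfl
    rw [e4, List.map_cons, List.map_cons, List.sum_cons, List.sum_cons, ← h1, length_mergeL B]
    have := ov_le_left (B.getLastD []) (B2.headD [])
    dsimp only
    omega

/-- Weight of a closed walk made of blocks. -/
theorem cycW_flatten {Bs : List (List (List ℕ))} (hBs : Bs ≠ []) (hne : ∀ b ∈ Bs, b ≠ []) :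
    cycW Bs.flatten +
      ((cprs [] Bs).map fun e => ov (e.1.getLastD []) (e.2.headD [])).sum =
      (Bs.map fun b => (mergeL b).length).sum := by
  obtain ⟨B, Bs, rfl⟩ := List.exists_cons_of_ne_nil hBs
  have hB : B ≠ [] := hne B (by simp)
  have h1 := linW_flatten (B.headD []) B Bs hne
  have h2 : (B :: Bs).flatten ≠ [] := by simp [hB]
  have h3 : (B :: Bs).flatten.headD [] = B.headD [] := by
    rw [List.flatten_cons, head_app _ _ _ hB]
  rw [cycW_eq h2, h3, ← h1]
  congr 2
  -- the closing pair only depends on the head
  unfold cprs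
  simp only [List.headD_cons]
  have key : ∀ (l : List (List (List ℕ))) (X Y : List (List ℕ)), X.headD [] = Y.headD [] →
      ((prsC X l).map fun e => ov (e.1.getLastD []) (e.2.headD [])) =
      ((prsC Y l).map fun e => ov (e.1.getLastD []) (e.2.headD [])) := by
    intro l
    induction l with
    | nil => intro X Y _; rfl
    | cons a l ih =>
      intro X Y hXY
      cases l with
      | nil => simp only [prsC, List.map_cons, List.map_nil, hXY]
      | cons b l =>
        simp only [prsC, List.map_cons]
        congr 1
        exact ih X Y hXY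
  exact key _ _ _ (by simp)

/-! ### Rotation of the word -/

theorem getD_app_left {A B : List ℕ} {t : ℕ} (h : t < A.length) :
    (A ++ B).getD t 0 = A.getD t 0 := List.getD_append _ _ _ _ h

theorem cycWord_swap {P Q : List (List ℕ)} (hP : P ≠ []) (hQ : Q ≠ [])
    (hw : 0 < cycW (P ++ Q)) (t : ℕ) :
    cycWord (Q ++ P) t = cycWord (P ++ Q) (t + st (P ++ Q) P.length) := by
  have hN : cycW (Q ++ P) = cycW (P ++ Q) := cycW_app_comm Q P
  have e1 : mergeL (Q ++ P) = (mergeL Q).take (linW (Q ++ [P.headD []])) ++ mergeL P :=
    mergeL_app Q P hQ hP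
  have e2 : mergeL (P ++ Q) = (mergeL P).take (linW (P ++ [Q.headD []])) ++ mergeL Q :=
    mergeL_app P Q hP hQ
  have e3 : st (P ++ Q) P.length = linW (P ++ [Q.headD []]) := st_app P Q hQ
  set mQ := linW (Q ++ [P.headD []]) with hmQ
  set mP := linW (P ++ [Q.headD []]) with hmP
  have lQ : mQ ≤ (mergeL Q).length := linW_le_length Q _ hQ
  have lP : mP ≤ (mergeL P).length := linW_le_length P _ hP
  have hsum : cycW (P ++ Q) = mP + mQ := by
    unfold cycW cycO
    rw [linW_app P Q hP hQ, last_app _ P Q hQ, head_app _ P Q hP, hmP, hmQ,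
      linW_snoc' P hP, linW_snoc' Q hQ]
    omega
  rw [e3]
  -- reduce to t < N
  have red : ∀ t, t < cycW (P ++ Q) → cycWord (Q ++ P) t = cycWord (P ++ Q) (t + mP) := by
    intro t ht
    have h1 : cycWord (Q ++ P) t = (mergeL (Q ++ P)).getD t 0 := by
      rw [cycWord, hN, Nat.mod_eq_of_lt ht]
    rw [h1]
    rcases Nat.lt_or_ge t mQ with h | h
    · have h2 : (mergeL (Q ++ P)).getD t 0 = (mergeL Q).getD t 0 := by
        rw [e1, getD_app_left (by rw [List.length_take]; omega)]
        rw [List.getD_eq_getElem?_getD, List.getD_eq_getElem?_getD, List.getElem?_take, if_pos h]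
      have h3 : (mergeL (P ++ Q)).getD (mP + t) 0 = (mergeL Q).getD t 0 := by
        rw [e2, List.getD_append_right _ _ _ _ (by rw [List.length_take]; omega)]
        congr 1
        rw [List.length_take]
        omega
      have h4 : mP + t < (mergeL (P ++ Q)).length := by
        rw [e2, List.length_append, List.length_take]
        omega
      rw [h2, ← h3, getD_mergeL_eq (P ++ Q) hw _ h4, Nat.add_comm]
    · have h2 : (mergeL (Q ++ P)).getD t 0 = (mergeL P).getD (t - mQ) 0 := by
        rw [e1, List.getD_append_right _ _ _ _ (by rw [List.length_take]; omega)]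
        congr 1
        rw [List.length_take]
        omega
      have h3 : (mergeL (P ++ Q)).getD (t - mQ) 0 = (mergeL P).getD (t - mQ) 0 := by
        rw [e2, getD_app_left (by rw [List.length_take]; omega)]
        rw [List.getD_eq_getElem?_getD, List.getD_eq_getElem?_getD, List.getElem?_take,
          if_pos (by omega)]
      have h4 : t - mQ < (mergeL (P ++ Q)).length := by
        rw [e2, List.length_append, List.length_take]
        omega
      rw [h2, ← h3, getD_mergeL_eq (P ++ Q) hw _ h4]
      have h5 : t + mP = (t - mQ) + cycW (P ++ Q) := by omega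
      rw [h5, cycWord_add]
  have h1 : cycWord (Q ++ P) t = cycWord (Q ++ P) (t % cycW (P ++ Q)) := by
    rw [← hN, cycWord_mod]
  rw [h1, red _ (Nat.mod_lt _ hw)]
  rw [← cycWord_mod (P ++ Q) (t % cycW (P ++ Q) + mP), ← cycWord_mod (P ++ Q) (t + mP),
    Nat.mod_add_mod]

theorem cycWord_rotate {c : List (List ℕ)} (hw : 0 < cycW c) (k : ℕ) :
    ∃ a, ∀ t, cycWord (c.rotate k) t = cycWord c (t + a) := by
  rw [List.rotate_eq_drop_append_take_mod]
  have h1 : c.take (k % c.length) ++ c.drop (k % c.length) = c := List.take_append_drop _ _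
  by_cases hP : c.take (k % c.length) = []
  · refine ⟨0, fun t => ?_⟩
    rw [hP] at h1 ⊢
    rw [List.append_nil, Nat.add_zero]
    rw [List.nil_append] at h1
    rw [h1]
  · by_cases hQ : c.drop (k % c.length) = []
    · refine ⟨0, fun t => ?_⟩
      rw [hQ] at h1 ⊢
      rw [List.nil_append, Nat.add_zero]
      rw [List.append_nil] at h1
      rw [h1]
    · refine ⟨st c (c.take (k % c.length)).length, fun t => ?_⟩
      have h2 := cycWord_swap hP hQ (by rw [h1]; exact hw) t
      rw [h1] at h2
      exact h2

/-! ### Traversals `D ++ D.take r` -/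

theorem head_take {D : List (List ℕ)} {r : ℕ} (hr : 0 < r) : (D.take r).headD [] = D.headD [] := by
  cases D with
  | nil => simp
  | cons a D =>
    obtain ⟨r, rfl⟩ := Nat.exists_eq_succ_of_ne_zero hr.ne'
    simp

theorem take_ne {D : List (List ℕ)} {r : ℕ} (hr : 0 < r) (hD : D ≠ []) : D.take r ≠ [] := by
  intro h
  have := congrArg List.length h
  rw [List.length_take, List.length_nil] at this
  have := List.length_pos_of_ne_nil hD
  omega

theorem mergeL_trav {D : List (List ℕ)} {r : ℕ} (hr : 0 < r) (hD : D ≠ []) :
    mergeL (D ++ D.take r) = (mergeL D).take (cycW D) ++ mergeL (D.take r) := by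
  rw [mergeL_app D _ hD (take_ne hr hD), head_take hr, ← cycW_eq hD]

theorem length_trav {D : List (List ℕ)} {r : ℕ} (hr : 0 < r) (hD : D ≠ []) :
    (mergeL (D ++ D.take r)).length = cycW D + (mergeL (D.take r)).length := by
  rw [mergeL_trav hr hD, List.length_append, List.length_take, length_mergeL' D]
  omega

/-- The merge of a traversal is a piece of the periodic word of the circle. -/
theorem getD_trav {D : List (List ℕ)} (hD : D ≠ []) (hw : 0 < cycW D) {r : ℕ} {t : ℕ}
    (ht : t < (mergeL (D ++ D.take r)).length) :
    (mergeL (D ++ D.take r)).getD t 0 = cycWord D t := by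
  rcases Nat.eq_zero_or_pos r with rfl | hr
  · rw [List.take_zero, List.append_nil] at ht ⊢
    exact getD_mergeL_eq D hw t ht
  · rw [length_trav hr hD] at ht
    rw [mergeL_trav hr hD]
    rcases Nat.lt_or_ge t (cycW D) with h | h
    · rw [getD_app_left (by rw [List.length_take, length_mergeL' D]; omega)]
      rw [List.getD_eq_getElem?_getD, List.getElem?_take, if_pos h, ← List.getD_eq_getElem?_getD]
      exact getD_mergeL_eq D hw t (by rw [length_mergeL' D]; omega)
    · rw [List.getD_append_right _ _ _ _ (by rw [List.length_take, length_mergeL' D]; omega)]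
      have e1 : t - ((mergeL D).take (cycW D)).length = t - cycW D := by
        rw [List.length_take, length_mergeL' D]
        omega
      rw [e1]
      obtain ⟨v, hv⟩ := mergeL_prefix_app (D.take r) (D.drop r) (take_ne hr hD)
      rw [List.take_append_drop] at hv
      have h2 : (mergeL (D.take r)).getD (t - cycW D) 0 = (mergeL D).getD (t - cycW D) 0 := by
        conv_rhs => rw [← hv]
        rw [getD_app_left (by omega)]
      have h3 : (mergeL (D.take r)).length ≤ (mergeL D).length := by
        rw [← hv, List.length_append]; omega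
      rw [h2, getD_mergeL_eq D hw _ (by omega)]
      have h4 : t = (t - cycW D) + cycW D := by omega
      conv_rhs => rw [h4]
      rw [cycWord_add]

theorem mergeL_take_lt {D : List (List ℕ)} (hne : ∀ s ∈ D, s ≠ []) {r : ℕ} (hr : r + 1 < D.length) :
    (mergeL (D.take (r + 1))).length < (mergeL (D.take (r + 2))).length := by
  have e1 := take_succ_eq D (i := r + 1) hr
  have e0 := take_succ_eq D (i := r) (by omega)
  have hT : D.take (r + 1) ≠ [] := take_ne (by omega) (by rintro rfl; simp at hr)
  have a1 := length_mergeL (D.take (r + 1))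
  have a2 := length_mergeL (D.take (r + 1) ++ [D.getD (r + 1) []])
  rw [linW_snoc' _ hT, last_app _ _ _ (by simp)] at a2
  have h1 : (D.take (r + 1)).getLastD [] = D.getD r [] := by
    rw [e0, last_app _ _ _ (by simp)]; simp
  rw [h1] at a1 a2
  rw [show r + 2 = r + 1 + 1 from rfl, e1, a1, a2]
  have h2 := ov_lt_right (D.getD r []) (hne _ (getD_mem (c := D) (i := r + 1) hr))
  have h3 := ov_le_left (D.getD r []) (D.getD (r + 1) [])
  simp only [List.getLastD_cons, List.getLastD_nil]
  omega

theorem mergeL_take_lt' {D : List (List ℕ)} (hne : ∀ s ∈ D, s ≠ []) {r : ℕ} (hr0 : 0 < r)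
    (hr : r < D.length) : (mergeL (D.take r)).length < (mergeL D).length := by
  have key : ∀ k, r + k < D.length →
      (mergeL (D.take r)).length < (mergeL (D.take (r + k + 1))).length := by
    intro k
    induction k with
    | zero =>
      intro h
      obtain ⟨r, rfl⟩ := Nat.exists_eq_succ_of_ne_zero hr0.ne'
      exact mergeL_take_lt hne h
    | succ k ih =>
      intro h
      refine (ih (by omega)).trans ?_
      have := mergeL_take_lt hne (r := r + k) (by omega)
      exact this
  have h := key (D.length - 1 - r) (by omega)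
  have e : r + (D.length - 1 - r) + 1 = D.length := by omega
  rw [e, List.take_length] at h
  exact h

/-- Exit side: `|mergeL| = w + δ + ov(h, next)`. -/
theorem length_trav_exit {D : List (List ℕ)} (hD : D ≠ []) {r : ℕ} (hr : r < D.length) :
    (mergeL (D ++ D.take r)).length =
      cycW D + st D r + ov ((D ++ D.take r).getLastD []) (D.getD r []) := by
  rcases Nat.eq_zero_or_pos r with rfl | h0
  · rw [List.take_zero, List.append_nil, length_mergeL', st_zero]
    unfold cycO
    obtain ⟨a, D, rfl⟩ := List.exists_cons_of_ne_nil hD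
    simp
  · rw [length_trav h0 hD, length_mergeL, last_app _ _ _ (take_ne h0 hD)]
    obtain ⟨q, rfl⟩ := Nat.exists_eq_succ_of_ne_zero h0.ne'
    rw [Nat.succ_eq_add_one, st_succ hr]
    have e1 : (D.take (q + 1)).getLastD [] = D.getD q [] := by
      rw [take_succ_eq D (by omega), last_app _ _ _ (by simp)]; simp
    rw [e1]
    have e2 : linW (D.take (q + 1)) = st D q := rfl
    rw [e2]
    have := ov_le_left (D.getD q []) (D.getD (q + 1) [])
    omega

/-- Entrance side: `|mergeL| = w + δ' + ov(pred a, a)`. -/
theorem length_trav_entry {D : List (List ℕ)} (hD : D ≠ []) (r : ℕ) :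
    (mergeL (D ++ D.take r)).length =
      cycW D + ((mergeL (D ++ D.take r)).length - (mergeL D).length) + cycO D := by
  have h1 : (mergeL D).length ≤ (mergeL (D ++ D.take r)).length :=
    (mergeL_prefix_app D (D.take r) hD).length_le
  rw [length_mergeL' D] at h1 ⊢
  omega

theorem exit_lt {D : List (List ℕ)} (hne : ∀ s ∈ D, s ≠ []) {r : ℕ} (hr : r < D.length) :
    st D r < cycW D := st_lt_cycW hne hr

theorem entry_lt {D : List (List ℕ)} (hD : D ≠ []) (hne : ∀ s ∈ D, s ≠ []) {r : ℕ}
    (hr : r < D.length) :
    (mergeL (D ++ D.take r)).length - (mergeL D).length < cycW D := by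
  have hw := cycW_pos hD hne
  rcases Nat.eq_zero_or_pos r with rfl | h0
  · simp only [List.take_zero, List.append_nil]
    omega
  · rw [length_trav h0 hD]
    have := mergeL_take_lt' hne h0 hr
    omega

/-- The strings with the indices `r, …, |D| - 1` end before the end of the first lap. -/
theorem st_add_le {D : List (List ℕ)} (hne : ∀ s ∈ D, s ≠ []) {i : ℕ} (hi : i < D.length) :
    st D i + (D.getD i []).length ≤ (mergeL D).length := by
  have h1 : st D i + (D.getD i []).length = (mergeL (D.take (i + 1))).length := by
    rw [length_mergeL, take_succ_eq D hi, last_app _ _ _ (by simp)]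
    rw [← take_succ_eq D hi]
    rfl
  rw [h1]
  rcases Nat.lt_or_eq_of_le (show i + 1 ≤ D.length by omega) with h | h
  · exact (mergeL_take_lt' hne (by omega) h).le
  · rw [h, List.take_length]

theorem st_trav {D : List (List ℕ)} {r i : ℕ} (hi : i < D.length) :
    st (D ++ D.take r) i = st D i := by
  unfold st
  rw [List.take_append_of_le_length (by omega)]

/-! ### The window of a closed walk -/

/-- The two-sided word of a closed walk. -/
def Zw (c : List (List ℕ)) (t : ℤ) : ℕ := cycWord c (t % (cycW c : ℤ)).toNat

theorem Zw_natCast {c : List (List ℕ)} (t : ℕ) : Zw c (t : ℤ) = cycWord c t := by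
  unfold Zw
  rw [← Int.natCast_mod, Int.toNat_natCast, cycWord_mod]

theorem perZ_Zw (c : List (List ℕ)) : PerZ (Zw c) (cycW c) := by
  intro t
  unfold Zw
  rw [Int.add_emod_right]

theorem primZ_Zw {c : List (List ℕ)} (hw : 0 < cycW c)
    (hprim : ∀ q, 0 < q → q < cycW c → ¬ ∀ k, cycWord c (k + q) = cycWord c k) :
    PrimZ (Zw c) (cycW c) where
  pos := hw
  per := perZ_Zw c
  min := by
    intro q h0 hq h
    refine hprim q h0 hq fun k => ?_
    have h1 := h (k : ℤ)
    rw [Zw_natCast, ← Nat.cast_add, Zw_natCast] at h1
    exact h1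

theorem occZ_of_occAt {c : List (List ℕ)} {s : List ℕ} {a : ℕ} (h : OccAt (cycWord c) s a) :
    OccZ (Zw c) s (a : ℤ) := by
  intro i hi
  rw [← Nat.cast_add, Zw_natCast]
  exact (h i hi).symm

theorem exists_two_idx {s : List ℕ} {c : List (List ℕ)} (h : 2 ≤ c.count s) :
    ∃ i j, i < j ∧ j < c.length ∧ c.getD i [] = s ∧ c.getD j [] = s := by
  induction c with
  | nil => simp at h
  | cons x c ih =>
    by_cases hx : x = s
    · subst hx
      rw [List.count_cons_self] at h
      have h1 : x ∈ c := List.count_pos_iff.1 (by omega)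
      obtain ⟨j, hj, hj2⟩ := List.getElem_of_mem h1
      refine ⟨0, j + 1, by omega, by simpa using hj, by simp, ?_⟩
      rw [List.getD_cons_succ, List.getD_eq_getElem _ _ hj, hj2]
    · rw [List.count_cons_of_ne hx] at h
      obtain ⟨i, j, h1, h2, h3, h4⟩ := ih h
      exact ⟨i + 1, j + 1, by omega, by simpa using h2, by simpa using h3, by simpa using h4⟩

/-- **Case (iii).** A closed walk `c` whose word is primitive; `Fb` is a list of pairs `(D, r)` such
that `D ++ D.take r` is a block of a rotation of `c`; the other strings are visited twice. -/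
theorem walk_window {c : List (List ℕ)} (hc : c ≠ []) (hne : ∀ s ∈ c, s ≠ [])
    (hprim : ∀ q, 0 < q → q < cycW c → ¬ ∀ k, cycWord c (k + q) = cycWord c k)
    (Fb : List (List (List ℕ) × ℕ))
    (hFb : ∀ e ∈ Fb, e.2 < e.1.length ∧ cycW e.1 < cycW c ∧
      ∃ k, (e.1 ++ e.1.take e.2) <:+: c.rotate k)
    (hs : ∀ s ∈ c, (∃ e ∈ Fb, s ∈ e.1) ∨ 2 ≤ c.count s) :
    ∃ U : List ℕ, (∃ a, OccAt (cycWord c) U a) ∧ (∀ s ∈ c, s <:+: U) ∧
      2 * U.length + (Fb.map fun e => st e.1 e.2 +
        ((mergeL (e.1 ++ e.1.take e.2)).length - (mergeL e.1).length)).sum ≤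
        2 * cycW c + (Fb.map fun e => 2 * cycW e.1).sum := by
  classical
  have hw := cycW_pos hc hne
  have hP := primZ_Zw hw hprim
  -- data of a block
  have hblk : ∀ i : Fin Fb.length, ∃ (k : ℕ) (A C : List (List ℕ)) (a : ℕ),
      A ++ (Fb[i].1 ++ Fb[i].1.take Fb[i].2) ++ C = c.rotate k ∧
      ∀ t, cycWord (c.rotate k) t = cycWord c (t + a) := by
    intro i
    obtain ⟨-, -, k, A, C, hAC⟩ := hFb Fb[i] (List.getElem_mem _)
    obtain ⟨a, ha⟩ := cycWord_rotate hw k
    exact ⟨k, A, C, a, hAC, ha⟩
  choose k A C a hAC ha using hblk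
  have hrotne : ∀ (i : ℕ), ∀ s ∈ c.rotate i, s ≠ [] := fun i s h => hne s (List.mem_rotate.1 h)
  have hrotc : ∀ i : ℕ, c.rotate i ≠ [] := fun i h => hc (List.rotate_eq_nil_iff.1 h)
  have hDlen : ∀ i : Fin Fb.length, Fb[i].2 < Fb[i].1.length :=
    fun i => (hFb Fb[i] (List.getElem_mem _)).1
  have hDne : ∀ i : Fin Fb.length, Fb[i].1 ≠ [] := by
    intro i h
    have := hDlen i
    rw [h] at this
    simp at this
  have hDs : ∀ i : Fin Fb.length, ∀ s ∈ Fb[i].1, s ≠ [] := by
    intro i s h
    refine hrotne (k i) s ?_
    rw [← hAC i]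
    simp only [List.mem_append]
    exact Or.inl (Or.inr (Or.inl h))
  have hBne : ∀ i : Fin Fb.length, Fb[i].1 ++ Fb[i].1.take Fb[i].2 ≠ [] := by
    intro i h
    exact hDne i (List.append_eq_nil_iff.1 h).1
  -- occurrence of a piece at a position of the rotated walk
  have hocc : ∀ (i : Fin Fb.length) (s : List ℕ) (b : ℕ), OccAt (cycWord (c.rotate (k i))) s b →
      OccAt (cycWord c) s (b + a i) := by
    intro i s b h j hj
    rw [h j hj, ha i]
    congr 1
    omega
  let w : Fin Fb.length → ℕ := fun i => cycW Fb[i].1
  let δ : Fin Fb.length → ℕ := fun i => st Fb[i].1 Fb[i].2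
  let δ' : Fin Fb.length → ℕ := fun i =>
    (mergeL (Fb[i].1 ++ Fb[i].1.take Fb[i].2)).length - (mergeL Fb[i].1).length
  let xs : Fin Fb.length → ℕ := fun i => st (c.rotate (k i)) (A i).length + a i
  let x : Fin Fb.length → ℤ := fun i => (xs i : ℤ)
  let y : Fin Fb.length → ℤ := fun i =>
    (xs i : ℤ) + ((mergeL (Fb[i].1 ++ Fb[i].1.take Fb[i].2)).length : ℤ)
  have hoccB : ∀ i : Fin Fb.length, OccAt (cycWord c)
      (mergeL (Fb[i].1 ++ Fb[i].1.take Fb[i].2)) (xs i) := by
    intro i
    refine hocc i _ _ ?_
    have h1 := occ_block (A := A i) (B := Fb[i].1 ++ Fb[i].1.take Fb[i].2) (C := C i) (hBne i)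
      (by rw [hAC i]; exact cycW_pos (hrotc _) (hrotne _))
    rw [hAC i] at h1
    exact h1
  obtain ⟨P, M, hM, hwin⟩ := cut_exists hP w δ δ' x y
    (fun i => ⟨cycW_pos (hDne i) (hDs i), (hFb Fb[i] (List.getElem_mem _)).2.1⟩)
    (fun i => (exit_lt (hDs i) (hDlen i)).le)
    (fun i => (entry_lt (hDne i) (hDs i) (hDlen i)).le)
    (by
      intro i t h1 h2
      obtain ⟨n, hn⟩ := Int.eq_ofNat_of_zero_le (show 0 ≤ t - (xs i : ℤ) by
        simp only [x] at h1; omega)
      have ht : t = ((xs i + n : ℕ) : ℤ) := by push_cast; omega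
      have hn2 : n + w i < (mergeL (Fb[i].1 ++ Fb[i].1.take Fb[i].2)).length := by
        simp only [y] at h2
        rw [ht] at h2
        push_cast at h2
        omega
      rw [ht, Zw_natCast, ← Nat.cast_add, Zw_natCast]
      have o1 := hoccB i n (by omega)
      have o2 := hoccB i (n + w i) hn2
      rw [← o1, show xs i + n + w i = xs i + (n + w i) by omega, ← o2]
      have g1 := getD_trav (r := Fb[i].2) (hDne i) (cycW_pos (hDne i) (hDs i)) (t := n) (by omega)
      have g2 := getD_trav (r := Fb[i].2) (hDne i) (cycW_pos (hDne i) (hDs i)) (t := n + w i) hn2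
      rw [List.getD_eq_getElem _ _ (by omega)] at g1
      rw [List.getD_eq_getElem _ _ hn2] at g2
      rw [g1, g2]
      exact (cycWord_add _ _).symm)
    {s | s ∈ c}
    (by
      intro s hsc
      -- two different visits of a walk
      have two : ∀ (d : List (List ℕ)) (b : ℕ), (∀ s ∈ d, s ≠ []) → cycW d = cycW c →
          (∀ s b', OccAt (cycWord d) s b' → OccAt (cycWord c) s (b' + b)) →
          ∀ i j, i < j → j < d.length → d.getD i [] = s → d.getD j [] = s →
          ∃ t1 t2, OccZ (Zw c) s t1 ∧ OccZ (Zw c) s t2 ∧ ¬ (cycW c : ℤ) ∣ t2 - t1 := by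
        intro d b hd hdw hb i j hij hj hi1 hj1
        have o1 := occ_st hd (show i < d.length by omega)
        have o2 := occ_st hd hj
        rw [hi1] at o1
        rw [hj1] at o2
        refine ⟨_, _, occZ_of_occAt (hb _ _ o1), occZ_of_occAt (hb _ _ o2), ?_⟩
        have h1 := st_lt hd hij hj
        have h2 := st_lt_cycW hd hj
        rintro ⟨m, hm⟩
        push_cast at hm
        have h3 : (0 : ℤ) < (st d j : ℤ) - st d i := by omega
        have h4 : (st d j : ℤ) - st d i < cycW c := by omega
        have h5 : (cycW c : ℤ) * m = (st d j : ℤ) - st d i := by omega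
        have h6 : 0 < (cycW c : ℤ) := by exact_mod_cast hw
        have h7 : 0 < m := by
          by_contra hcon
          have : (cycW c : ℤ) * m ≤ 0 := mul_nonpos_of_nonneg_of_nonpos h6.le (by omega)
          omega
        have h8 : (cycW c : ℤ) * 1 ≤ (cycW c : ℤ) * m := mul_le_mul_of_nonneg_left (by omega) h6.le
        omega
      rcases hs s hsc with ⟨e, he, hse⟩ | h2
      · obtain ⟨n, hn, rfl⟩ := List.getElem_of_mem he
        let i : Fin Fb.length := ⟨n, hn⟩
        have hsi : s ∈ Fb[i].1 := hse
        obtain ⟨m, hm, hm2⟩ := List.getElem_of_mem hsi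
        have hBg : ∀ q, q < (Fb[i].1 ++ Fb[i].1.take Fb[i].2).length →
            (c.rotate (k i)).getD ((A i).length + q) [] =
              (Fb[i].1 ++ Fb[i].1.take Fb[i].2).getD q [] := by
          intro q hq
          rw [← hAC i, List.append_assoc, List.getD_append_right _ _ _ _ (by omega),
            Nat.add_sub_cancel_left, List.getD_append _ _ _ _ hq]
        have hlenr : (c.rotate (k i)).length =
            (A i).length + (Fb[i].1 ++ Fb[i].1.take Fb[i].2).length + (C i).length := by
          rw [← hAC i]; simp only [List.length_append]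
        rcases Nat.lt_or_ge m Fb[i].2 with hmr | hmr
        · -- visited twice inside of the block
          left
          have hl : (Fb[i].1 ++ Fb[i].1.take Fb[i].2).length = Fb[i].1.length + Fb[i].2 := by
            rw [List.length_append, List.length_take, min_eq_left (hDlen i).le]
          refine two (c.rotate (k i)) (a i) (hrotne _) (cycW_rot _ _) (fun s b h => hocc i s b h)
            ((A i).length + m) ((A i).length + (Fb[i].1.length + m)) (by omega)
            (by rw [hlenr, hl]; omega) ?_ ?_
          · rw [hBg m (by rw [hl]; omega), List.getD_append _ _ _ _ hm,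
              List.getD_eq_getElem _ _ hm, hm2]
          · rw [hBg _ (by rw [hl]; omega), List.getD_append_right _ _ _ _ (by omega),
              Nat.add_sub_cancel_left, List.getD_eq_getElem?_getD, List.getElem?_take,
              if_pos hmr, List.getElem?_eq_getElem hm, Option.getD_some, hm2]
        · right
          have o1 : OccAt (cycWord c) s (xs i + st Fb[i].1 m) := by
            have o2 := occ_st (hrotne (k i)) (i := (A i).length + m) (by
              rw [hlenr, List.length_append]; omega)
            rw [hBg m (by rw [List.length_append]; omega), List.getD_append _ _ _ _ hm,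
              List.getD_eq_getElem _ _ hm, hm2] at o2
            have o3 := hocc i _ _ o2
            have o4 := st_block (A := A i) (B := Fb[i].1 ++ Fb[i].1.take Fb[i].2) (C := C i)
              (i := m) (by rw [List.length_append]; omega)
            rw [hAC i, st_trav hm] at o4
            rw [o4] at o3
            have o5 : st (c.rotate (k i)) (A i).length + st Fb[i].1 m + a i =
              xs i + st Fb[i].1 m := by simp only [xs]; omega
            rw [o5] at o3
            exact o3
          refine ⟨i, _, occZ_of_occAt o1, ?_, ?_⟩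
          · have h5 : st Fb[i].1 Fb[i].2 ≤ st Fb[i].1 m := st_le (hDs i) hmr hm
            simp only [x, δ]
            push_cast
            omega
          · have h5 := st_add_le (hDs i) hm
            rw [List.getD_eq_getElem _ _ hm, hm2] at h5
            have h6 : (mergeL Fb[i].1).length ≤
                (mergeL (Fb[i].1 ++ Fb[i].1.take Fb[i].2)).length :=
              (mergeL_prefix_app _ _ (hDne i)).length_le
            simp only [y, δ']
            rw [Nat.cast_sub h6]
            push_cast
            omega
      · left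
        obtain ⟨i, j, h1, h3, h4, h5⟩ := exists_two_idx h2
        exact two c 0 hne rfl (fun s b h => by simpa using h) i j h1 h3 h4 h5)
  -- the window as a list
  obtain ⟨P', q, hP'⟩ : ∃ (P' : ℕ) (q : ℤ), P = (P' : ℤ) + q * cycW c := by
    refine ⟨(P % (cycW c : ℤ)).toNat, P / cycW c, ?_⟩
    have h2 := Int.emod_nonneg P (show (cycW c : ℤ) ≠ 0 by exact_mod_cast hw.ne')
    rw [Int.toNat_of_nonneg h2]
    have := Int.emod_add_mul_ediv P (cycW c : ℤ)
    linarith [mul_comm (cycW c : ℤ) (P / cycW c)]
  refine ⟨(List.range M).map fun j => cycWord c (P' + j), ⟨P', ?_⟩, ?_, ?_⟩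
  · intro i hi
    simp
  · intro s hsc
    obtain ⟨t, ht, h1, h2⟩ := hwin s hsc
    have ht' := ht.shift (perZ_Zw c) (-q)
    obtain ⟨n, hn⟩ := Int.eq_ofNat_of_zero_le (show 0 ≤ t - P by omega)
    have e1 : t + -q * (cycW c : ℤ) = ((P' + n : ℕ) : ℤ) := by
      push_cast
      have : t = P + n := by omega
      rw [this, hP']
      ring
    rw [e1] at ht'
    have hlen : n + s.length ≤ M := by omega
    have key : s = (((List.range M).map fun j => cycWord c (P' + j)).drop n).take s.length := by
      apply List.ext_getElem
      · rw [List.length_take, List.length_drop, List.length_map, List.length_range]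
        omega
      · intro i h3 h4
        rw [List.getElem_take, List.getElem_drop, List.getElem_map, List.getElem_range]
        have h7 := ht' i h3
        rw [← Nat.cast_add, Zw_natCast] at h7
        rw [← h7]
        congr 1
        omega
    rw [key]
    exact ((List.take_prefix _ _).isInfix).trans (List.drop_suffix _ _).isInfix
  · rw [List.length_map, List.length_range]
    have e1 : ∑ i : Fin Fb.length, ((w i - δ i) + (w i - δ' i)) +
        (Fb.map fun e => st e.1 e.2 +
        ((mergeL (e.1 ++ e.1.take e.2)).length - (mergeL e.1).length)).sum =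
        (Fb.map fun e => 2 * cycW e.1).sum := by
      rw [← Fin.sum_univ_fun_getElem, ← Fin.sum_univ_fun_getElem, ← Finset.sum_add_distrib]
      refine Finset.sum_congr rfl fun i _ => ?_
      have h1 := (exit_lt (hDs i) (hDlen i)).le
      have h2 := (entry_lt (hDne i) (hDs i) (hDlen i)).le
      simp only [w, δ, δ']
      simp only [Fin.getElem_fin] at h1 h2 ⊢
      omega
    omega

end Vale.Agent.P333.H120
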