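import Mathlib
import Vale.Agent.P333.Y.Parts
import Vale.Agent.P333.H120.Walk

set_option autoImplicit false
set_option linter.all false

/-!
P333, ratio 2: the part B1 (traversals).
-/

namespace Vale.Agent.P333.H120

open Vale.Agent.P333 Vale.Agent.P333.U Vale.Agent.P333.Y

theorem mem_prsC_idx (h : List ℕ) : ∀ (c : List (List ℕ)) (e : List ℕ × List ℕ),
    e ∈ prsC h c → ∃ i, i < c.length ∧ e.1 = c.getD i [] ∧ e.2 = (c ++ [h]).getD (i + 1) [] := by
  intro c
  induction c with
  | nil => intro e he; simp [prsC] at he
  | cons x r ih =>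
    intro e he
    cases r with
    | nil =>
      simp only [prsC, List.mem_singleton] at he
      subst he
      exact ⟨0, by simp, by simp, by simp⟩
    | cons y r =>
      simp only [prsC, List.mem_cons] at he
      rcases he with rfl | he
      · exact ⟨0, by simp, by simp, by simp⟩
      · obtain ⟨i, h1, h2, h3⟩ := ih e (by simpa [prsC] using he)
        refine ⟨i + 1, by simpa using h1, ?_, ?_⟩
        · rw [List.getD_cons_succ]; exact h2
        · rw [List.cons_append, List.getD_cons_succ]; exact h3

theorem mem_cprs_idx {c : List (List ℕ)} {e : List ℕ × List ℕ} (he : e ∈ cprs [] c) :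
    ∃ i, i < c.length ∧ e.1 = c.getD i [] ∧ e.2 = c.getD ((i + 1) % c.length) [] := by
  obtain ⟨i, h1, h2, h3⟩ := mem_prsC_idx _ c e he
  refine ⟨i, h1, h2, ?_⟩
  rw [h3]
  rcases Nat.lt_or_eq_of_le (show i + 1 ≤ c.length by omega) with h | h
  · rw [Nat.mod_eq_of_lt h, List.getD_append _ _ _ _ h]
  · rw [h, Nat.mod_self, List.getD_append_right _ _ _ _ le_rfl, Nat.sub_self]
    obtain ⟨a, c, rfl⟩ := List.exists_cons_of_ne_nil (show c ≠ [] by rintro rfl; simp at h1)
    simp

theorem getD_rotate {c : List (List ℕ)} (n : ℕ) {i : ℕ} (hi : i < c.length) :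
    (c.rotate n).getD i [] = c.getD ((i + n) % c.length) [] := by
  have h1 : i < (c.rotate n).length := by rw [List.length_rotate]; exact hi
  rw [List.getD_eq_getElem _ _ h1, List.getElem_rotate,
    List.getD_eq_getElem _ _ (Nat.mod_lt _ (by omega))]

theorem idxOf_getD {c : List (List ℕ)} (hc : c.Nodup) {i : ℕ} (hi : i < c.length) :
    c.idxOf (c.getD i []) = i := by
  rw [List.getD_eq_getElem _ _ hi]
  exact hc.idxOf_getElem i hi

theorem getLastD_eq_getD {c : List (List ℕ)} (hc : c ≠ []) :
    c.getLastD [] = c.getD (c.length - 1) [] := by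
  have h := List.length_pos_of_ne_nil hc
  rw [List.getLastD_eq_getLast?, List.getLast?_eq_some_getLast hc, Option.getD_some,
    List.getD_eq_getElem _ _ (by omega), List.getLast_eq_getElem]

theorem headD_eq_getD (c : List (List ℕ)) : c.headD [] = c.getD 0 [] := by
  cases c with
  | nil => simp
  | cons a c => simp

/-- A string of a walk is at its start in the merge. -/
theorem prefix_drop_merge {c : List (List ℕ)} {i : ℕ} (hi : i < c.length) :
    c.getD i [] <+: (mergeL c).drop (st c i) := by
  have h1 : c = c.take i ++ [c.getD i []] ++ c.drop (i + 1) := by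
    rw [← take_succ_eq c hi, List.take_append_drop]
  have h2 := mergeL_block (c.take i) [c.getD i []] (c.drop (i + 1)) (by simp)
  rw [← h1] at h2
  have h3 : (c.take i) ++ [[c.getD i []].headD []] = c.take (i + 1) := by
    rw [take_succ_eq c hi]; simp
  rw [h3] at h2
  simpa [mergeL, st] using h2

theorem OccAt_drop {Z : ℕ → ℕ} {u s : List ℕ} {P a : ℕ} (h : OccAt Z u P) (hs : s <+: u.drop a) :
    OccAt Z s (P + a) := by
  intro i hi
  obtain ⟨v, hv⟩ := hs
  have hlen : a + i < u.length := by
    have := congrArg List.length hv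
    simp only [List.length_append, List.length_drop] at this
    omega
  have h2 : i < (u.drop a).length := by rw [List.length_drop]; omega
  have h3 : (u.drop a)[i] = u[a + i] := by rw [List.getElem_drop]
  have h4 : (u.drop a)[i] = (s ++ v)[i]'(by rw [hv]; exact h2) := by
    simp only [hv]
  rw [List.getElem_append_left hi] at h4
  rw [← h4, h3, h _ hlen]
  congr 1
  omega

theorem st_trav2 {D : List (List ℕ)} (hD : D ≠ []) {r m : ℕ} (hr : r ≤ D.length) (hm : m < r) :
    st (D ++ D.take r) (D.length + m) = cycW D + st D m := by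
  unfold st
  have h1 : (D ++ D.take r).take (D.length + m + 1) = D ++ D.take (m + 1) := by
    rw [List.take_append, List.take_of_length_le (by omega)]
    congr 1
    rw [show D.length + m + 1 - D.length = m + 1 by omega, List.take_take, min_eq_left (by omega)]
  rw [h1, linW_app D _ hD (take_ne (by omega) hD), head_take (by omega)]
  unfold cycW cycO
  omega

theorem partB1 : PartB1 := by
  intro S hS D hD hnd hDS e1 he1 e2 he2
  have hne : ∀ s ∈ D, s ≠ [] := fun s hs => hS.1 s (hDS s hs)
  have hK : 0 < D.length := List.length_pos_of_ne_nil hD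
  obtain ⟨i1, hi1, e11, e12⟩ := mem_cprs_idx he1
  obtain ⟨i2, hi2, e21, e22⟩ := mem_cprs_idx he2
  set K := D.length with hKdef
  set n := (i2 + 1) % K with hn
  have hnK : n < K := Nat.mod_lt _ hK
  have hidx2 : D.idxOf e2.2 = n := by rw [e22, idxOf_getD hnd hnK]
  set D' := D.rotate n with hD'
  have hD'len : D'.length = K := by rw [hD', List.length_rotate]
  have hD'ne : D' ≠ [] := by
    intro h
    rw [h, List.length_nil] at hD'len
    omega
  have hD'nd : D'.Nodup := List.nodup_rotate.2 hnd
  have hcyc : cycW D' = cycW D := cycW_rot D n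
  have hne' : ∀ s ∈ D', s ≠ [] := fun s hs => hne s (List.mem_rotate.1 hs)
  have hget : ∀ i, i < K → D'.getD i [] = D.getD ((i + n) % K) [] := fun i hi => getD_rotate n hi
  -- the index of the exit
  set j := (i1 + (K - n)) % K with hj
  have hjK : j < K := Nat.mod_lt _ hK
  have hDj : D'.getD j [] = e1.1 := by
    rw [hget j hjK, e11, hj, Nat.mod_add_mod, show i1 + (K - n) + n = i1 + K by omega,
      Nat.add_mod_right, Nat.mod_eq_of_lt hi1]
  have hidx1 : D'.idxOf e1.1 = j := by rw [← hDj, idxOf_getD hD'nd (by omega)]
  set r := (j + 1) % K with hr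
  have hrK : r < K := Nat.mod_lt _ hK
  have hDr : D'.getD r [] = e1.2 := by
    rw [hget r hrK, e12, hr, Nat.mod_add_mod, hj]
    congr 1
    have h1 : ((i1 + (K - n)) % K + 1 + n) % K = ((i1 + (K - n)) % K + (1 + n)) % K := by
      rw [Nat.add_assoc]
    rw [h1, Nat.mod_add_mod, show i1 + (K - n) + (1 + n) = i1 + 1 + K by omega, Nat.add_mod_right]
  have htrav : trav D e2.2 e1.1 = D' ++ D'.take r := by
    unfold trav
    rw [hidx2, ← hD', hidx1]
  have hhead : D'.headD [] = e2.2 := by
    rw [headD_eq_getD, hget 0 hK, e22, Nat.zero_add, Nat.mod_eq_of_lt hnK]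
  have hlast : D'.getLastD [] = e2.1 := by
    rw [getLastD_eq_getD hD'ne, hD'len, hget _ (by omega), e21]
    congr 1
    rw [hn, Nat.add_mod_mod, show K - 1 + (i2 + 1) = i2 + K by omega, Nat.add_mod_right,
      Nat.mod_eq_of_lt hi2]
  have hlastT : (D' ++ D'.take r).getLastD [] = e1.1 := by
    rcases Nat.eq_zero_or_pos r with h0 | h0
    · rw [h0, List.take_zero, List.append_nil, getLastD_eq_getD hD'ne, hD'len, ← hDj]
      congr 1
      have h2 : j + 1 = K := by
        rcases Nat.lt_or_eq_of_le (show j + 1 ≤ K by omega) with h | h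
        · rw [hr, Nat.mod_eq_of_lt h] at h0
          omega
        · exact h
      omega
    · have h2 : r = j + 1 := by
        rcases Nat.lt_or_eq_of_le (show j + 1 ≤ K by omega) with h | h
        · rw [hr, Nat.mod_eq_of_lt h]
        · rw [hr, h, Nat.mod_self] at h0
          omega
      rw [last_app _ _ _ (take_ne h0 hD'ne), h2, take_succ_eq D' (by omega), last_app _ _ _ (by simp),
        hDj]
      simp
  have hl1 := length_trav_exit (r := r) hD'ne (by omega)
  have hl2 := length_trav_entry hD'ne r
  have hB1 : (mergeL D').length ≤ (mergeL (D' ++ D'.take r)).length :=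
    (mergeL_prefix_app _ _ hD'ne).length_le
  refine ⟨st D' r, (mergeL (D' ++ D'.take r)).length - (mergeL D').length, ?_, ?_, ?_, ?_, ?_, ?_,
    ?_, ?_, ?_⟩
  · rw [← hcyc]; exact (exit_lt hne' (by omega)).le
  · rw [← hcyc]; exact (entry_lt hD'ne hne' (by omega)).le
  · rw [htrav, hl1, hcyc, hlastT, hDr]
  · rw [htrav]
    have h3 : cycO D' = ov e2.1 e2.2 := by unfold cycO; rw [hhead, hlast]
    rw [← h3, ← hcyc]
    exact hl2
  · rw [htrav]
    intro h
    exact hD'ne (List.append_eq_nil_iff.1 h).1
  · rw [htrav, head_app _ _ _ hD'ne, hhead]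
  · rw [htrav, hlastT]
  · intro s
    rw [htrav, List.mem_append]
    constructor
    · rintro (h | h)
      · exact List.mem_rotate.1 h
      · exact List.mem_rotate.1 (List.mem_of_mem_take h)
    · intro h
      exact Or.inl (List.mem_rotate.2 h)
  · intro Z P hocc
    rw [htrav] at hocc ⊢
    have hw' : 0 < cycW D' := cycW_pos hD'ne hne'
    constructor
    · intro i h1 h2
      obtain ⟨t, rfl⟩ := Nat.exists_eq_add_of_le h1
      have ht : t + cycW D' < (mergeL (D' ++ D'.take r)).length := by rw [hcyc]; omega
      have o1 := hocc t (by omega)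
      have o2 := hocc (t + cycW D') ht
      have g1 := getD_trav (r := r) hD'ne hw' (t := t) (by omega)
      have g2 := getD_trav (r := r) hD'ne hw' ht
      rw [List.getD_eq_getElem _ _ (by omega)] at g1
      rw [List.getD_eq_getElem _ _ ht] at g2
      rw [Nat.add_assoc, ← hcyc, ← o2, ← o1, g1, g2, cycWord_add]
    · intro s hs
      have hs' : s ∈ D' := List.mem_rotate.2 hs
      obtain ⟨m, hm, hm2⟩ := List.getElem_of_mem hs'
      have hm3 : D'.getD m [] = s := by rw [List.getD_eq_getElem _ _ hm, hm2]
      have hlB : (D' ++ D'.take r).length = K + r := by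
        rw [List.length_append, List.length_take, hD'len, min_eq_left hrK.le]
      have o1 : OccAt Z s (P + st D' m) := by
        have h3 := prefix_drop_merge (c := D' ++ D'.take r) (i := m) (by omega)
        rw [List.getD_append _ _ _ _ hm, hm3, st_trav hm] at h3
        exact OccAt_drop hocc h3
      rcases Nat.lt_or_ge m r with hmr | hmr
      · left
        refine ⟨P + st D' m, o1, ?_⟩
        have h3 := prefix_drop_merge (c := D' ++ D'.take r) (i := D'.length + m) (by omega)
        rw [List.getD_append_right _ _ _ _ (by omega), Nat.add_sub_cancel_left,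
          st_trav2 hD'ne (by omega) hmr] at h3
        have h4 : (D'.take r).getD m [] = s := by
          rw [List.getD_eq_getElem?_getD, List.getElem?_take, if_pos hmr,
            ← List.getD_eq_getElem?_getD, hm3]
        rw [h4] at h3
        have h5 := OccAt_drop hocc h3
        rw [show P + st D' m + cycW D = P + (cycW D' + st D' m) by omega]
        exact h5
      · right
        refine ⟨P + st D' m, ?_, ?_, o1⟩
        · have := st_le hne' hmr hm
          omega
        · have := st_add_le hne' hm
          rw [hm3] at this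
          omega

end Vale.Agent.P333.H120
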